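import Mathlib

open scoped ContDiff InnerProductSpace
open Real

namespace Vale.Agent.Lib.P205

/-- The map `(x, y) ↦ (ρ(x)/κ · e^{i(κy + β(x))}, R · e^{iθ(x)})` into `ℝ⁴ = ℂ²`. -/
noncomputable def torusMap (ρ β θ : ℝ → ℝ) (κ R : ℝ) (p : ℝ × ℝ) : EuclideanSpace ℝ (Fin 4) :=
  !₂[ρ p.1 / κ * cos (κ * p.2 + β p.1), ρ p.1 / κ * sin (κ * p.2 + β p.1),
    R * cos (θ p.1), R * sin (θ p.1)]

theorem inner_fderiv_of_components {F : ℝ × ℝ → EuclideanSpace ℝ (Fin 4)} {p : ℝ × ℝ}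
    {L : Fin 4 → (ℝ × ℝ →L[ℝ] ℝ)} (h : ∀ i, HasFDerivAt (fun q => F q i) (L i) p)
    (v w : ℝ × ℝ) :
    ⟪fderiv ℝ F p v, fderiv ℝ F p w⟫_ℝ = ∑ i, L i v * L i w := by
  have hd : DifferentiableAt ℝ F p :=
    differentiableAt_euclidean.2 fun i => (h i).differentiableAt
  have key : ∀ i u, (fderiv ℝ F p u) i = L i u := by
    intro i u
    have h1 : HasFDerivAt (fun q => F q i) (PiLp.proj 2 (fun _ : Fin 4 => ℝ) i ∘L fderiv ℝ F p) p := by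
      have := (hasFDerivWithinAt_euclidean (𝕜 := ℝ) (f := F) (f' := fderiv ℝ F p) (t := Set.univ)
        (y := p)).1 (hd.hasFDerivAt.hasFDerivWithinAt) i
      exact hasFDerivWithinAt_univ.1 this
    have h2 := h1.unique (h i)
    have h3 := congrArg (fun T : ℝ × ℝ →L[ℝ] ℝ => T u) h2
    simpa using h3
  rw [PiLp.inner_apply]
  refine Finset.sum_congr rfl fun i _ => ?_
  rw [key i v, key i w]
  simp [mul_comm]

theorem torusMap_pullback {ρ β θ : ℝ → ℝ} {κ R : ℝ} (hκ : κ ≠ 0) {p : ℝ × ℝ} {ρ' β' θ' : ℝ}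
    (hρ : HasDerivAt ρ ρ' p.1) (hβ : HasDerivAt β β' p.1) (hθ : HasDerivAt θ θ' p.1)
    (v w : ℝ × ℝ) :
    ⟪fderiv ℝ (torusMap ρ β θ κ R) p v, fderiv ℝ (torusMap ρ β θ κ R) p w⟫_ℝ
      = ((ρ' / κ) ^ 2 + (ρ p.1 * β' / κ) ^ 2 + (R * θ') ^ 2) * v.1 * w.1
        + ((ρ p.1) ^ 2 * β' / κ) * (v.1 * w.2 + v.2 * w.1) + (ρ p.1) ^ 2 * v.2 * w.2 := by
  have h1 : HasFDerivAt (fun q : ℝ × ℝ => ρ q.1 / κ)
      ((ρ' / κ) • ContinuousLinearMap.fst ℝ ℝ ℝ) p :=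
    (hρ.div_const κ).comp_hasFDerivAt p hasFDerivAt_fst
  have h2 : HasFDerivAt (fun q : ℝ × ℝ => θ q.1) (θ' • ContinuousLinearMap.fst ℝ ℝ ℝ) p :=
    hθ.comp_hasFDerivAt p hasFDerivAt_fst
  have h4 : HasFDerivAt (fun q : ℝ × ℝ => β q.1) (β' • ContinuousLinearMap.fst ℝ ℝ ℝ) p :=
    hβ.comp_hasFDerivAt p hasFDerivAt_fst
  have h3 : HasFDerivAt (fun q : ℝ × ℝ => κ * q.2 + β q.1)
      (κ • ContinuousLinearMap.snd ℝ ℝ ℝ + β' • ContinuousLinearMap.fst ℝ ℝ ℝ) p :=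
    (hasFDerivAt_snd.const_mul κ).add h4
  have c0 := h1.mul h3.cos
  have c1 := h1.mul h3.sin
  have c2 := h2.cos.const_mul R
  have c3 := h2.sin.const_mul R
  rw [inner_fderiv_of_components (F := torusMap ρ β θ κ R) (p := p)
    (L := ![_, _, _, _]) (fun i => by
      fin_cases i
      · exact c0
      · exact c1
      · exact c2
      · exact c3) v w]
  simp only [Fin.sum_univ_four]
  simp
  have hs := sin_sq_add_cos_sq (κ * p.2 + β p.1)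
  have hs' := sin_sq_add_cos_sq (θ p.1)
  field_simp
  linear_combination ((ρ p.1) ^ 2 * (κ * v.2 + β' * v.1) * (κ * w.2 + β' * w.1)
    + ρ' ^ 2 * v.1 * w.1) * hs + (κ ^ 2 * v.1 * w.1 * R ^ 2 * θ' ^ 2) * hs'

end Vale.Agent.Lib.P205
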