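import Vale.Agent.Lib.P205.Pullback

open scoped ContDiff InnerProductSpace
open Real

namespace Vale.Agent.Lib.P205

theorem periodic_deriv {f : ℝ → ℝ} {a : ℝ} (hf : Function.Periodic f a) :
    Function.Periodic (deriv f) a := by
  intro x
  have h : (fun y => f (y + a)) = f := funext hf
  have h2 := deriv_comp_add_const f a x
  rw [h] at h2
  exact h2.symm

theorem exists_bound {q : ℝ → ℝ} {a : ℝ} (ha : a ≠ 0) (hq : Continuous q)
    (hp : Function.Periodic q a) : ∃ C : ℝ, ∀ x, q x ≤ C := by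
  have hb := hp.isBounded_of_continuous ha hq
  obtain ⟨C, hC⟩ := hb.bddAbove
  exact ⟨C, fun x => hC ⟨x, rfl⟩⟩

/-- primitive of a smooth function -/
noncomputable def prim (s : ℝ → ℝ) (x : ℝ) : ℝ := ∫ t in (0 : ℝ)..x, s t

theorem prim_hasDerivAt {s : ℝ → ℝ} (hs : Continuous s) (x : ℝ) :
    HasDerivAt (prim s) (s x) x :=
  intervalIntegral.integral_hasDerivAt_right (hs.intervalIntegrable _ _)
    (hs.stronglyMeasurableAtFilter _ _) hs.continuousAt

theorem prim_contDiff {s : ℝ → ℝ} (hs : ContDiff ℝ ∞ s) : ContDiff ℝ ∞ (prim s) := by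
  rw [contDiff_infty_iff_deriv]
  refine ⟨fun x => (prim_hasDerivAt hs.continuous x).differentiableAt, ?_⟩
  have : deriv (prim s) = s := funext fun x => (prim_hasDerivAt hs.continuous x).deriv
  rw [this]; exact hs

theorem prim_add_period {s : ℝ → ℝ} {a : ℝ} (hs : Continuous s) (hp : Function.Periodic s a)
    (x : ℝ) : prim s (x + a) = prim s x + prim s a := by
  have := hp.intervalIntegral_add_eq_add 0 x (fun t₁ t₂ => hs.intervalIntegrable t₁ t₂)
  simpa [prim] using this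

theorem torusMap_contDiff {ρ β θ : ℝ → ℝ} {κ R : ℝ} (hρ : ContDiff ℝ ∞ ρ) (hβ : ContDiff ℝ ∞ β)
    (hθ : ContDiff ℝ ∞ θ) : ContDiff ℝ ∞ (torusMap ρ β θ κ R) := by
  rw [contDiff_euclidean]
  have h1 : ContDiff ℝ ∞ (fun q : ℝ × ℝ => ρ q.1 / κ) := (hρ.comp contDiff_fst).div_const κ
  have h2 : ContDiff ℝ ∞ (fun q : ℝ × ℝ => κ * q.2 + β q.1) :=
    (contDiff_const.mul contDiff_snd).add (hβ.comp contDiff_fst)
  have h3 : ContDiff ℝ ∞ (fun q : ℝ × ℝ => θ q.1) := hθ.comp contDiff_fst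
  intro i
  fin_cases i
  · exact h1.mul h2.cos
  · exact h1.mul h2.sin
  · exact contDiff_const.mul h3.cos
  · exact contDiff_const.mul h3.sin

/-- All circle-invariant metrics `E dx² + 2 M dx dy + G dy²` (coefficients depending on `x` only)
on the torus `ℝ² / ⟨(a, τ), (0, b)⟩` whose total twist `τ + ∫₀ᵃ M/G` is a rational multiple of `b`
admit a smooth isometric immersion into `ℝ⁴`. -/
theorem main (a b τ : ℝ) (ha : 0 < a) (hb : 0 < b) (E M G : ℝ → ℝ)
    (hE : ContDiff ℝ ∞ E) (hM : ContDiff ℝ ∞ M) (hG : ContDiff ℝ ∞ G)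
    (hGpos : ∀ x, 0 < G x) (hdet : ∀ x, 0 < E x * G x - M x ^ 2)
    (hEper : Function.Periodic E a) (hMper : Function.Periodic M a)
    (hGper : Function.Periodic G a)
    (N : ℕ) (hN : 0 < N) (m : ℤ) (htw : (N : ℝ) * (τ + ∫ t in (0 : ℝ)..a, M t / G t) = m * b) :
    ∃ F : ℝ × ℝ → EuclideanSpace ℝ (Fin 4), ContDiff ℝ ∞ F ∧
      (∀ p : ℝ × ℝ, F (p.1 + a, p.2 + τ) = F p) ∧ (∀ p : ℝ × ℝ, F (p.1, p.2 + b) = F p) ∧
      ∀ (p v w : ℝ × ℝ), ⟪fderiv ℝ F p v, fderiv ℝ F p w⟫_ℝ
        = E p.1 * v.1 * w.1 + M p.1 * (v.1 * w.2 + v.2 * w.1) + G p.1 * v.2 * w.2 := by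
  -- basic functions
  set ρ : ℝ → ℝ := fun x => √(G x) with hρdef
  have hρ : ContDiff ℝ ∞ ρ := hG.sqrt fun x => (hGpos x).ne'
  have hρsq : ∀ x, ρ x ^ 2 = G x := fun x => Real.sq_sqrt (hGpos x).le
  have hρper : Function.Periodic ρ a := fun x => by simp [hρdef, hGper x]
  have hρ' : ContDiff ℝ ∞ (deriv ρ) := (contDiff_infty_iff_deriv.1 hρ).2
  have hρ'per := periodic_deriv hρper
  set E₁ : ℝ → ℝ := fun x => E x - M x ^ 2 / G x with hE₁def
  have hE₁ : ContDiff ℝ ∞ E₁ := hE.sub ((hM.pow 2).div hG fun x => (hGpos x).ne')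
  have hE₁pos : ∀ x, 0 < E₁ x := by
    intro x
    have h1 := hdet x
    have h2 := hGpos x
    have : E₁ x = (E x * G x - M x ^ 2) / G x := by
      simp only [hE₁def]; field_simp
    rw [this]; positivity
  have hE₁per : Function.Periodic E₁ a := fun x => by simp [hE₁def, hEper x, hMper x, hGper x]
  -- bound
  obtain ⟨C, hC⟩ := exists_bound (q := fun x => (deriv ρ x) ^ 2 / E₁ x) ha.ne'
    ((hρ'.continuous.pow 2).div hE₁.continuous fun x => (hE₁pos x).ne')
    (fun x => by simp [hρ'per x, hE₁per x])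
  -- choice of the winding number
  set c₀ : ℝ := 2 * π * N / b with hc₀
  have hc₀pos : 0 < c₀ := by positivity
  obtain ⟨k, hk⟩ := exists_nat_gt ((|C| + 1) / c₀)
  set κ : ℝ := c₀ * k with hκdef
  have hκ1 : |C| + 1 < κ := by
    rw [div_lt_iff₀ hc₀pos] at hk
    linarith
  have hκpos : 0 < κ := lt_of_le_of_lt (by positivity) hκ1
  have hκC : C < κ ^ 2 := by
    have h1 : C ≤ |C| := le_abs_self C
    have h2 : 0 ≤ |C| := abs_nonneg C
    nlinarith
  -- the remaining speed
  set s2 : ℝ → ℝ := fun x => E₁ x - (deriv ρ x / κ) ^ 2 with hs2def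
  have hs2 : ContDiff ℝ ∞ s2 := hE₁.sub ((hρ'.div_const κ).pow 2)
  have hs2pos : ∀ x, 0 < s2 x := by
    intro x
    have h1 := hC x
    have h2 := hE₁pos x
    rw [div_le_iff₀ h2] at h1
    have h3 : (deriv ρ x / κ) ^ 2 = (deriv ρ x) ^ 2 / κ ^ 2 := by rw [div_pow]
    simp only [hs2def]
    rw [h3, sub_pos, div_lt_iff₀ (by positivity)]
    nlinarith
  have hs2per : Function.Periodic s2 a := fun x => by simp [hs2def, hρ'per x, hE₁per x]
  set s : ℝ → ℝ := fun x => √(s2 x) with hsdef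
  have hs : ContDiff ℝ ∞ s := hs2.sqrt fun x => (hs2pos x).ne'
  have hspos : ∀ x, 0 < s x := fun x => Real.sqrt_pos.2 (hs2pos x)
  have hssq : ∀ x, s x ^ 2 = s2 x := fun x => Real.sq_sqrt (hs2pos x).le
  have hsper : Function.Periodic s a := fun x => by simp [hsdef, hs2per x]
  have hLpos : 0 < prim s a :=
    intervalIntegral.intervalIntegral_pos_of_pos (hs.continuous.intervalIntegrable _ _) hspos ha
  set R : ℝ := prim s a / (2 * π) with hRdef
  have hRpos : 0 < R := by positivity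
  set θ : ℝ → ℝ := fun x => prim s x / R with hθdef
  have hθ : ContDiff ℝ ∞ θ := (prim_contDiff hs).div_const R
  have hθper : ∀ x, θ (x + a) = θ x + 2 * π := by
    intro x
    simp only [hθdef, prim_add_period hs.continuous hsper x, add_div]
    congr 1
    rw [hRdef]; field_simp
  -- the phase
  set μ : ℝ → ℝ := fun x => M x / G x with hμdef
  have hμ : ContDiff ℝ ∞ μ := hM.div hG fun x => (hGpos x).ne'
  have hμper : Function.Periodic μ a := fun x => by simp [hμdef, hMper x, hGper x]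
  set β : ℝ → ℝ := fun x => κ * prim μ x with hβdef
  have hβ : ContDiff ℝ ∞ β := contDiff_const.mul (prim_contDiff hμ)
  have hβper : ∀ x, β (x + a) = β x + κ * prim μ a := by
    intro x
    simp only [hβdef, prim_add_period hμ.continuous hμper x, mul_add]
  refine ⟨torusMap ρ β θ κ R, torusMap_contDiff hρ hβ hθ, ?_, ?_, ?_⟩
  · intro p
    have h1 : κ * (p.2 + τ) + β (p.1 + a) = (κ * p.2 + β p.1) + ((k : ℤ) * m : ℤ) * (2 * π) := by
      rw [hβper]
      have h2 : κ * (τ + prim μ a) = ((k : ℤ) * m : ℤ) * (2 * π) := by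
        have h3 : τ + prim μ a = m * b / N := by
          rw [eq_div_iff (by positivity)]
          have := htw
          simp only [prim, hμdef]
          linarith
        rw [h3, hκdef, hc₀]
        push_cast
        field_simp
      linarith
    simp only [torusMap]
    rw [h1, hθper, hρper, Real.cos_add_int_mul_two_pi, Real.sin_add_int_mul_two_pi,
      Real.cos_add_two_pi, Real.sin_add_two_pi]
  · intro p
    have h1 : κ * (p.2 + b) + β p.1 = (κ * p.2 + β p.1) + ((N * k : ℕ) : ℝ) * (2 * π) := by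
      rw [hκdef, hc₀]
      push_cast
      field_simp
      ring
    simp only [torusMap]
    rw [h1, Real.cos_add_nat_mul_two_pi, Real.sin_add_nat_mul_two_pi]
  · intro p v w
    have d1 : HasDerivAt ρ (deriv ρ p.1) p.1 :=
      ((contDiff_infty_iff_deriv.1 hρ).1 p.1).hasDerivAt
    have d2 : HasDerivAt β (κ * μ p.1) p.1 := (prim_hasDerivAt hμ.continuous p.1).const_mul κ
    have d3 : HasDerivAt θ (s p.1 / R) p.1 := (prim_hasDerivAt hs.continuous p.1).div_const R
    rw [torusMap_pullback hκpos.ne' d1 d2 d3 v w]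
    have e1 : R * (s p.1 / R) = s p.1 := by field_simp
    have e2 : ρ p.1 * (κ * μ p.1) / κ = ρ p.1 * μ p.1 := by field_simp
    have e3 : ρ p.1 ^ 2 * (κ * μ p.1) / κ = M p.1 := by
      rw [hρsq]; simp only [hμdef]; have := (hGpos p.1).ne'; field_simp
    have e4 : (ρ p.1 * μ p.1) ^ 2 = M p.1 ^ 2 / G p.1 := by
      rw [mul_pow, hρsq]; simp only [hμdef]; have := (hGpos p.1).ne'; field_simp
    rw [e1, e2, e3, e4, hssq, hρsq]
    simp only [hs2def, hE₁def]
    ring

end Vale.Agent.Lib.P205
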